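import Mathlib

/-!
# P201: elements of `K[G]` supported on at most two group elements are not zero divisors
(`G` torsion-free, `K` any field).
-/

open MonoidAlgebra

namespace Vale.Agent.Results.P201.SupportTwo

theorem left_aux {K G : Type*} [Field K] [Group G]
    (htf : ∀ (x : G) (n : ℕ), 0 < n → x ^ n = 1 → x = 1) (g h : G) (α β : K)
    (f : MonoidAlgebra K G) (ha : single g α + single h β ≠ (0 : MonoidAlgebra K G))
    (hf : (single g α + single h β) * f = 0) : f = 0 := by
  classical
  have hpt : ∀ y, α * f.coeff (g⁻¹ * y) + β * f.coeff (h⁻¹ * y) = 0 := by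
    intro y
    have := congrArg (fun F : MonoidAlgebra K G => F.coeff y) hf
    simpa [add_mul, coeff_single_mul_apply] using this
  by_contra hne
  obtain ⟨z0, hz0⟩ : ∃ z, f.coeff z ≠ 0 := by
    by_contra hcon
    push Not at hcon
    exact hne (coeff_injective (Finsupp.ext hcon))
  by_cases hβ : β = 0
  · by_cases hα : α = 0
    · rw [hα, hβ] at ha
      simp at ha
    · have := hpt (g * z0)
      rw [hβ] at this
      simp [hα] at this
      exact hz0 this
  by_cases hα : α = 0
  · have := hpt (h * z0)
    rw [hα] at this
    simp [hβ] at this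
    exact hz0 this
  set s : G := h⁻¹ * g with hs
  set lam : K := -(α / β) with hlam
  have hlam0 : lam ≠ 0 := by
    rw [hlam]; exact neg_ne_zero.2 (div_ne_zero hα hβ)
  have hstep : ∀ z, f.coeff (s * z) = lam * f.coeff z := by
    intro z
    have := hpt (g * z)
    rw [inv_mul_cancel_left, ← mul_assoc] at this
    rw [hs, hlam]
    field_simp
    linear_combination this
  have hpow : ∀ (j : ℕ) z, f.coeff (s ^ j * z) = lam ^ j * f.coeff z := by
    intro j
    induction j with
    | zero => intro z; simp
    | succ j ih =>
      intro z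
      rw [pow_succ', mul_assoc, hstep, ih]
      ring
  have hfin : IsOfFinOrder s := by
    by_contra hcon
    have hinj : Function.Injective fun n : ℕ => s ^ n := injective_pow_iff_not_isOfFinOrder.2 hcon
    have hinj2 : Function.Injective fun n : ℕ => s ^ n * z0 := fun i j hij =>
      hinj (mul_right_cancel hij)
    have hsub : Set.range (fun n : ℕ => s ^ n * z0) ⊆ (f.coeff.support : Set G) := by
      rintro _ ⟨n, rfl⟩
      simp only [Finset.mem_coe, Finsupp.mem_support_iff]
      rw [hpow]
      exact mul_ne_zero (pow_ne_zero _ hlam0) hz0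
    exact (Set.infinite_range_of_injective hinj2) (f.coeff.support.finite_toSet.subset hsub)
  obtain ⟨n, hn, hsn⟩ := isOfFinOrder_iff_pow_eq_one.1 hfin
  have hs1 : s = 1 := htf s n hn hsn
  have hgh : g = h := by
    have : h * s = g := by rw [hs, mul_inv_cancel_left]
    rw [← this, hs1, mul_one]
  have h1 := hstep z0
  rw [hs1, one_mul] at h1
  have hl1 : lam = 1 := by
    have h2 : (lam - 1) * f.coeff z0 = 0 := by linear_combination -h1
    rcases mul_eq_zero.1 h2 with h3 | h3
    · linear_combination h3
    · exact absurd h3 hz0
  apply ha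
  have hαβ : α + β = 0 := by
    rw [hlam] at hl1
    field_simp at hl1
    linear_combination -hl1
  rw [hgh, ← single_add, hαβ, single_zero]

theorem right_aux {K G : Type*} [Field K] [Group G]
    (htf : ∀ (x : G) (n : ℕ), 0 < n → x ^ n = 1 → x = 1) (g h : G) (α β : K)
    (f : MonoidAlgebra K G) (ha : single g α + single h β ≠ (0 : MonoidAlgebra K G))
    (hf : f * (single g α + single h β) = 0) : f = 0 := by
  classical
  have hpt : ∀ y, f.coeff (y * g⁻¹) * α + f.coeff (y * h⁻¹) * β = 0 := by
    intro y
    have := congrArg (fun F : MonoidAlgebra K G => F.coeff y) hf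
    simpa [mul_add, coeff_mul_single_apply] using this
  by_contra hne
  obtain ⟨z0, hz0⟩ : ∃ z, f.coeff z ≠ 0 := by
    by_contra hcon
    push Not at hcon
    exact hne (coeff_injective (Finsupp.ext hcon))
  by_cases hβ : β = 0
  · by_cases hα : α = 0
    · rw [hα, hβ] at ha
      simp at ha
    · have := hpt (z0 * g)
      rw [hβ] at this
      simp [hα] at this
      exact hz0 this
  by_cases hα : α = 0
  · have := hpt (z0 * h)
    rw [hα] at this
    simp [hβ] at this
    exact hz0 this
  set s : G := g * h⁻¹ with hs
  set lam : K := -(α / β) with hlam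
  have hlam0 : lam ≠ 0 := by
    rw [hlam]; exact neg_ne_zero.2 (div_ne_zero hα hβ)
  have hstep : ∀ z, f.coeff (z * s) = lam * f.coeff z := by
    intro z
    have := hpt (z * g)
    rw [mul_inv_cancel_right, mul_assoc] at this
    rw [hs, hlam]
    field_simp
    linear_combination this
  have hpow : ∀ (j : ℕ) z, f.coeff (z * s ^ j) = lam ^ j * f.coeff z := by
    intro j
    induction j with
    | zero => intro z; simp
    | succ j ih =>
      intro z
      rw [pow_succ, ← mul_assoc, hstep, ih]
      ring
  have hfin : IsOfFinOrder s := by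
    by_contra hcon
    have hinj : Function.Injective fun n : ℕ => s ^ n := injective_pow_iff_not_isOfFinOrder.2 hcon
    have hinj2 : Function.Injective fun n : ℕ => z0 * s ^ n := fun i j hij =>
      hinj (mul_left_cancel hij)
    have hsub : Set.range (fun n : ℕ => z0 * s ^ n) ⊆ (f.coeff.support : Set G) := by
      rintro _ ⟨n, rfl⟩
      simp only [Finset.mem_coe, Finsupp.mem_support_iff]
      rw [hpow]
      exact mul_ne_zero (pow_ne_zero _ hlam0) hz0
    exact (Set.infinite_range_of_injective hinj2) (f.coeff.support.finite_toSet.subset hsub)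
  obtain ⟨n, hn, hsn⟩ := isOfFinOrder_iff_pow_eq_one.1 hfin
  have hs1 : s = 1 := htf s n hn hsn
  have hgh : g = h := by
    have : s * h = g := by rw [hs, inv_mul_cancel_right]
    rw [← this, hs1, one_mul]
  have h1 := hstep z0
  rw [hs1, mul_one] at h1
  have hl1 : lam = 1 := by
    have h2 : (lam - 1) * f.coeff z0 = 0 := by linear_combination -h1
    rcases mul_eq_zero.1 h2 with h3 | h3
    · linear_combination h3
    · exact absurd h3 hz0
  apply ha
  have hαβ : α + β = 0 := by
    rw [hlam] at hl1
    field_simp at hl1
    linear_combination -hl1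
  rw [hgh, ← single_add, hαβ, single_zero]

theorem result (K G : Type*) [Field K] [Group G]
    (htf : ∀ (x : G) (n : ℕ), 0 < n → x ^ n = 1 → x = 1) (g h : G) (α β : K)
    (f : MonoidAlgebra K G) :
    ((single g α + single h β) * f = 0 → single g α + single h β = 0 ∨ f = 0) ∧
    (f * (single g α + single h β) = 0 → f = 0 ∨ single g α + single h β = 0) := by
  constructor
  · intro hf
    by_cases ha : single g α + single h β = (0 : MonoidAlgebra K G)
    · exact Or.inl ha
    · exact Or.inr (left_aux htf g h α β f ha hf)
  · intro hf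
    by_cases ha : single g α + single h β = (0 : MonoidAlgebra K G)
    · exact Or.inr ha
    · exact Or.inl (right_aux htf g h α β f ha hf)

end Vale.Agent.Results.P201.SupportTwo
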